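import Vale.Agent.P032.H780.CechV

/-!
# P032: the Čech end with two-pair points, symmetric normal form of the labels

`cech_endW` : as 780's `cech_endV`, with the label one on all three pairs inside `{0,1,2}`.
-/

open Set Filter Topology Metric

noncomputable section

namespace Vale.Agent.P032.Six

open Vale.Agent.P032.S5 Vale.Agent.P032.Carr Vale.Agent.P032.S5.Tab

variable {U : Fin 6 → Set ℂ} {T : ℂ → Set (Fin 6)} {f : ℂ → Set (Fin 6)} {Z : Set ℂ} {c : ℂ}
  {R δ₀ : ℝ} {v : ℂ}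

/-- one at the colour two -/
def w451 (i : Fin 6) : ZMod 2 := if i = 2 then 1 else 0

theorem w451_key : ∀ i j : Fin 6, i ≠ j → i ∉ ({3, 4, 5} : Set (Fin 6)) →
    j ∉ ({3, 4, 5} : Set (Fin 6)) →
    1 + w451 i + w451 j = if ({i, j} : Finset (Fin 6)) = {0, 1} then 1 else 0 := by
  have key : ∀ i j : Fin 6, i ≠ j → (i ≠ 3 ∧ i ≠ 4 ∧ i ≠ 5) → (j ≠ 3 ∧ j ≠ 4 ∧ j ≠ 5) →
      1 + w451 i + w451 j = if ({i, j} : Finset (Fin 6)) = {0, 1} then 1 else 0 := by decide
  intro i j hij hi hj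
  simp only [mem_insert_iff, mem_singleton_iff, not_or] at hi hj
  exact key i j hij hi hj

/-- **The Čech end, symmetric normal form.** -/
theorem DSt.cech_endW (D : DSt U T Z f c R δ₀) (hvc : dist v c ≤ R - 1) (hv : T v = {3, 4, 5})
    (hap : ∀ z, dist z v = 1 → 4 ≤ (T z).ncard → ¬ T z \ f z ⊆ T v) (hring : RingOdd T Z f v)
    (Ψ : Fin 6 → Fin 6 → ℂ → ZMod 2) (sym : ∀ i j x, Ψ i j x = Ψ j i x)
    (loc : ∀ i j, i ≠ j → ∀ x ∈ closedBall v 1, i ∈ T x → j ∈ T x → ¬ Dg T x i j →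
      ∀ᶠ y in 𝓝 x, y ∈ closedBall v 1 → i ∈ T y → j ∈ T y → Ψ i j y = Ψ i j x)
    (bas : ∀ x ∈ closedBall v 1, ∀ i j k, i ≠ j → j ≠ k → i ≠ k → i ∈ T x → j ∈ T x → k ∈ T x →
      ¬ Dg T x i j → ¬ Dg T x j k → ¬ Dg T x i k → Ψ i j x + Ψ j k x + Ψ i k x = 0)
    (four : ∀ x ∈ closedBall v 1, ∀ a b m n, DPt T x a b m n →
      Ψ a m x + Ψ m b x + Ψ b n x + Ψ n a x = 0)
    (eps1 : ∀ x, dist x v = 1 → ∀ i j, i ≠ j → i ∈ T x → j ∈ T x → i ∉ T v → j ∉ T v →
      ¬ Dg T x i j → Ψ i j x = 1)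
    (epsV : ∀ x, dist x v = 1 → ∀ a b m n, DPt T x a b m n → f x = {m, n} → a ≠ b → a ∉ T v →
      b ∉ T v → Ψ a m x + Ψ m b x = 1) : False := by
  refine D.cech_endV hvc hv hap hring (fun i j x => Ψ i j x + w451 i + w451 j)
    (fun i j x => ?_) (fun i j hij x hx hi hj hd => ?_) (fun x hx i j k h1 h2 h3 h4 h5 h6 h7 h8
      h9 => ?_) (fun x hx a b m n hD => ?_) (fun x hx i j hij hi hj hiv hjv hd => ?_)
    fun x hx a b m n hD hf hav hbv => ?_
  · show Ψ i j x + w451 i + w451 j = Ψ j i x + w451 j + w451 i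
    rw [sym i j x]
    ring
  · filter_upwards [loc i j hij x hx hi hj hd] with y hy h1 h2 h3
    show Ψ i j y + w451 i + w451 j = Ψ i j x + w451 i + w451 j
    rw [hy h1 h2 h3]
  · have h := bas x hx i j k h1 h2 h3 h4 h5 h6 h7 h8 h9
    revert h
    generalize Ψ i j x = a1
    generalize Ψ j k x = a2
    generalize Ψ i k x = a3
    generalize w451 i = a4
    generalize w451 j = a5
    generalize w451 k = a6
    revert a1 a2 a3 a4 a5 a6
    decide
  · have h := four x hx a b m n hD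
    show Ψ a m x + w451 a + w451 m + (Ψ m b x + w451 m + w451 b) +
      (Ψ b n x + w451 b + w451 n) + (Ψ n a x + w451 n + w451 a) = 0
    have e : Ψ a m x + w451 a + w451 m + (Ψ m b x + w451 m + w451 b) +
        (Ψ b n x + w451 b + w451 n) + (Ψ n a x + w451 n + w451 a) =
        (Ψ a m x + Ψ m b x + Ψ b n x + Ψ n a x) + ((w451 a + w451 a) + (w451 m + w451 m) +
          (w451 b + w451 b) + (w451 n + w451 n)) := by ring
    rw [e, h]
    generalize w451 a = a1
    generalize w451 b = a2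
    generalize w451 m = a3
    generalize w451 n = a4
    revert a1 a2 a3 a4
    decide
  · show Ψ i j x + w451 i + w451 j = _
    rw [eps1 x hx i j hij hi hj hiv hjv hd]
    rw [hv] at hiv hjv
    exact w451_key i j hij hiv hjv
  · have hab : a ≠ b := hD.ab
    rw [hv] at hav hbv
    have h := epsV x hx a b m n hD hf hab (by rw [hv]; exact hav) (by rw [hv]; exact hbv)
    rw [← w451_key a b hab hav hbv, ← h]
    show Ψ a m x + w451 a + w451 m + (Ψ m b x + w451 m + w451 b) = _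
    have e : Ψ a m x + w451 a + w451 m + (Ψ m b x + w451 m + w451 b) =
        Ψ a m x + Ψ m b x + w451 a + w451 b + (w451 m + w451 m) := by ring
    rw [e, CharTwo.add_self_eq_zero, add_zero]

end Vale.Agent.P032.Six
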