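import Vale.Agent.P032.H451.LabN

/-!
# P032: the labels of the states in closed form (for chains)

`psiC p z` : class label over the pair `p`, a function of the triples meeting `p`;
`chiC p T z` : forced label; `PhiC p T z` : label of the pair `p` at a point of type `T` and state
`z`.  `sum_PhiC` : the cocycle identity at every admissible state whose type is not `{0,1,2}`;
all pairs inside `{0,1,2}` have the label one.
-/

namespace Vale.Agent.P032.H451

open Finset Vale.Agent.P032.S5 Vale.Agent.P032.S5.Tab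

/-- value of the class label over `p` -/
def psiC (p : Finset (Fin 6)) (z : Ch) : ZMod 2 :=
  if LabN.psiN (msk p) (toB z) = true then 1 else 0

/-- value of the forced label over `p` -/
def chiC (p T : Finset (Fin 6)) (z : Ch) : ZMod 2 :=
  if LabN.chiN (msk p) (msk T) (toB z) = true then 1 else 0

/-- value of the label over `p` at a point of state `(T, z)` -/
def PhiC (p T : Finset (Fin 6)) (z : Ch) : ZMod 2 := if Forced p T z then chiC p T z else psiC p z

theorem psiC_congr {p : Finset (Fin 6)} {z z' : Ch} (hp : p.card = 2)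
    (h : ∀ s : Finset (Fin 6), s.card = 3 → ¬ Disjoint s p → z s = z' s) :
    psiC p z = psiC p z' := by
  unfold psiC
  have key : ∀ p : Finset (Fin 6), p.card = 2 → ∀ m ∈ trips, Nat.land m (msk p) ≠ 0 →
      ¬ Disjoint (unm m) p := by decide
  rw [LabN.psiN_congr (msk_pairs p hp) fun m hm h0 => ?_]
  unfold toB
  rw [h (unm m) (card_unm_trips m hm) (key p hp m hm h0)]

theorem chiC_congr {p T : Finset (Fin 6)} {z z' : Ch}
    (h : ∀ s : Finset (Fin 6), s.card = 3 → z s = z' s) : chiC p T z = chiC p T z' := by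
  unfold chiC
  rw [LabN.chiN_congr (toB_congr h)]

theorem PhiC_congr {p T : Finset (Fin 6)} {z z' : Ch}
    (h : ∀ s : Finset (Fin 6), s.card = 3 → z s = z' s) : PhiC p T z = PhiC p T z' := by
  unfold PhiC psiC
  rw [chiC_congr h, LabN.psiN_congr' (toB_congr h)]
  by_cases hF : Forced p T z
  · rw [if_pos hF, if_pos ((forced_congr h).1 hF)]
  · rw [if_neg hF, if_neg fun hF' => hF ((forced_congr h).2 hF')]

lemma PhiC_eq (p T : Finset (Fin 6)) (z : Ch) :
    PhiC p T z = if LabN.PhiN (msk p) (msk T) (toB z) = true then 1 else 0 := by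
  unfold PhiC LabN.PhiN Forced chiC psiC
  by_cases h : forcedN (msk p) (msk T) (toB z) = true
  · simp [h]
  · simp [h]

/-- **the cocycle identity at every state whose type is not `{0,1,2}`** -/
theorem sum_PhiC {T : Finset (Fin 6)} {z : Ch} (hT : T.card = 3) (hT' : T ≠ {0, 1, 2})
    (h : Adm T z) : ∑ p ∈ T.powersetCard 2, PhiC p T z = 0 := by
  obtain ⟨c, hc, hcode⟩ := exists_code h.1
  have hm := msk_trips T hT
  have h1 := adm_admN hT h
  have h2 := LabN.chk_all c hc
  unfold LabN.chk at h2
  rw [List.all_eq_true] at h2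
  have h3 := h2 _ hm
  have h4 : admN (msk T) (fun s => (cycN c).testBit s) = true := by
    rw [← h1]
    exact (admN_congr hcode hm).symm
  have h5 : (msk T == 7) = false := by
    rw [beq_eq_false_iff_ne]
    intro he
    apply hT'
    rw [← unm_msk T, he]
    decide
  simp only [h4, h5, Bool.not_true, Bool.false_or, Bool.not_eq_true'] at h3
  obtain ⟨⟨e1, e2, e3, e4, e5⟩, n1, n2⟩ := prs_spec _ hm
  rw [unm_msk] at e1
  rw [e1, sum_insert n1, sum_insert n2, sum_singleton, PhiC_eq, PhiC_eq, PhiC_eq, e3, e4, e5]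
  rw [e2] at h3
  simp only [List.map_cons, List.map_nil, List.foldr_cons, List.foldr_nil] at h3
  have e : ∀ p, LabN.PhiN p (msk T) (fun s => (cycN c).testBit s) =
      LabN.PhiN p (msk T) (toB z) := fun p => (LabN.PhiN_congr hcode p _).symm
  rw [e, e, e] at h3
  revert h3
  generalize LabN.PhiN ((prs (msk T)).getD 0 0) (msk T) (toB z) = x
  generalize LabN.PhiN ((prs (msk T)).getD 1 0) (msk T) (toB z) = y
  generalize LabN.PhiN ((prs (msk T)).getD 2 0) (msk T) (toB z) = w
  revert x y w
  decide

/-! ### red pairs -/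

lemma red_msk : ∀ p : Finset (Fin 6), p ⊆ {0, 1, 2} → (Nat.land (msk p) 7 == msk p) = true := by
  decide

theorem psiC_red {p : Finset (Fin 6)} (hp : p ⊆ {0, 1, 2}) (z : Ch) : psiC p z = 1 := by
  unfold psiC LabN.psiN
  rw [red_msk p hp, Bool.true_or, if_pos rfl]

theorem chiC_red {p : Finset (Fin 6)} (hp : p ⊆ {0, 1, 2}) (T : Finset (Fin 6)) (z : Ch) :
    chiC p T z = 1 := by
  unfold chiC LabN.chiN
  rw [red_msk p hp, if_pos rfl, if_pos rfl]

theorem PhiC_red {p : Finset (Fin 6)} (hp : p ⊆ {0, 1, 2}) (T : Finset (Fin 6)) (z : Ch) :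
    PhiC p T z = 1 := by
  unfold PhiC
  rw [chiC_red hp, psiC_red hp, ite_self]

end Vale.Agent.P032.H451
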