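import Vale.Agent.P032.H747.L1A
import Vale.Agent.P032.H451.LabC

/-!
# P032: the label theorem with the closed form

`LabI.exists_labelC` : 747's label theorem with `psiC`, `chiC`, `PhiC`.
-/

open Set Filter Topology Metric

noncomputable section

namespace Vale.Agent.P032.H747

open Vale.Agent.P032.S5 Vale.Agent.P032.S5.Tab

variable {E : Set ℂ} {p : Finset (Fin 6)} {r : ℂ → Ch} {st : ℂ → Finset (Fin 6) → Ch}
  {Bs : ℂ → Finset (Fin 6) → Prop}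

/-- **Labels in closed form.** -/
theorem LabI.exists_labelC (h : LabI E p r st Bs) {W : Set ℂ} (hW : W.Finite) :
    ∃ Ψ : ℂ → ZMod 2, (∀ x ∈ E, ∀ᶠ y in 𝓝 x, y ∈ E → Ψ y = Ψ x) ∧
      (∀ x ∈ E, ∀ S, Bs x S → Ψ x = H451.PhiC p S (st x S)) ∧
      ∀ x ∈ W, x ∈ E → (∃ Q ⊆ E, IsPreconnected Q ∧ x ∈ Q ∧ ∃ y ∈ Q, ∃ S, Bs y S ∧
          Forced p S (st y S) ∧ Ψ x = H451.chiC p S (st y S)) ∨
        ((∀ Q ⊆ E, IsPreconnected Q → x ∈ Q → ∀ y ∈ Q, ∀ S, Bs y S → ¬ Forced p S (st y S)) ∧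
          Ψ x = H451.psiC p (r x)) :=
  h.exists_label3 hW (ps := H451.psiC p) (ch := H451.chiC p)
    (fun _ _ hz => H451.psiC_congr h.pc hz) fun _ _ _ hz => H451.chiC_congr hz

end Vale.Agent.P032.H747
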