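import Vale.Agent.P032.S5.H11.Tab

/-!
# P032: the labels of the states in closed form (numerical part)

3-subsets of `{0,…,5}` are coded by their masks, a mod-2 chain is a function `B : ℕ → Bool`, as in
`S5/H11/TabN`.  Red colours: `0, 1, 2`.  All three red pairs have the label one.  A border `{a,c}`
on which the type changes has a tile `a` whose link is zero; its label is read off the link of `c`.
-/

namespace Vale.Agent.P032.H451.LabN

open Vale.Agent.P032.S5.Tab

/-- the link of the colour `a` is zero -/
def zeroN (a : ℕ) (B : ℕ → Bool) : Bool := trips.all (fun s => !(s.testBit a && B s))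

/-- number of edges of the link of the colour `c` -/
def degN (c : ℕ) (B : ℕ → Bool) : ℕ := (trips.filter (fun s => s.testBit c && B s)).length

/-- no edge of the link of `c` ends in `b` -/
def noN (b c : ℕ) (B : ℕ → Bool) : Bool :=
  trips.all (fun s => !((s.testBit b && s.testBit c) && B s))

/-- the next red colour -/
def nxtN (a : ℕ) : ℕ := if a == 0 then 1 else if a == 1 then 2 else 0

/-- the label of a border `{a,c}` with zero link at `a` -/
def fN (a c : ℕ) (B : ℕ → Bool) : Bool :=
  zeroN a B && ((Nat.ble 3 a && Nat.blt c 3 && degN c B == 4) ||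
    (Nat.blt a 3 && Nat.ble 3 c && degN c B == 3 && noN (nxtN a) c B))

/-- the two colours of a pair -/
def lowN (p : ℕ) : ℕ := ((List.range 6).filter (fun i => p.testBit i)).getD 0 0

def highN (p : ℕ) : ℕ := ((List.range 6).filter (fun i => p.testBit i)).getD 1 0

/-- value of the class label -/
def psiN (p : ℕ) (B : ℕ → Bool) : Bool :=
  Nat.land p 7 == p || (fN (lowN p) (highN p) B || fN (highN p) (lowN p) B)

def val0 (q T : ℕ) (B : ℕ → Bool) : Bool :=
  Nat.land q 7 == q || (!(forcedN q T B) && psiN q B)

/-- value of the forced label -/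
def chiN (p T : ℕ) (B : ℕ → Bool) : Bool :=
  if Nat.land p 7 == p then true
  else if ((prs T).filter (fun q => forcedN q T B && !(Nat.land q 7 == q))).head? == some p then
    (((prs T).filter (fun q => !(q == p))).map (fun q => val0 q T B)).foldr xor false
  else false

def PhiN (p T : ℕ) (B : ℕ → Bool) : Bool :=
  if forcedN p T B then chiN p T B else psiN p B

/-- everything to be checked for the code `c` -/
def chk (c : ℕ) : Bool :=
  let Z := cycN c
  let B : ℕ → Bool := fun s => Z.testBit s
  trips.all (fun T => T == 7 || !(admN T B) ||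
    !(((prs T).map (fun p => PhiN p T B)).foldr xor false))

theorem chk_all : ∀ c < 1024, chk c = true := by decide +kernel

/-! ### congruence -/

lemma zeroN_congr {a : ℕ} {B B' : ℕ → Bool} (h : ∀ s ∈ trips, s.testBit a = true → B s = B' s) :
    zeroN a B = zeroN a B' := by
  unfold zeroN
  rw [Bool.eq_iff_iff, List.all_eq_true, List.all_eq_true]
  refine forall₂_congr fun s hs => ?_
  by_cases h1 : s.testBit a = true
  · rw [h s hs h1]
  · rw [Bool.eq_false_iff.2 h1, Bool.false_and, Bool.false_and]

lemma degN_congr {c : ℕ} {B B' : ℕ → Bool} (h : ∀ s ∈ trips, s.testBit c = true → B s = B' s) :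
    degN c B = degN c B' := by
  unfold degN
  congr 1
  refine List.filter_congr fun s hs => ?_
  by_cases h1 : s.testBit c = true
  · rw [h s hs h1]
  · rw [Bool.eq_false_iff.2 h1, Bool.false_and, Bool.false_and]

lemma noN_congr {b c : ℕ} {B B' : ℕ → Bool} (h : ∀ s ∈ trips, s.testBit c = true → B s = B' s) :
    noN b c B = noN b c B' := by
  unfold noN
  rw [Bool.eq_iff_iff, List.all_eq_true, List.all_eq_true]
  refine forall₂_congr fun s hs => ?_
  by_cases h1 : s.testBit c = true
  · rw [h s hs h1]
  · rw [Bool.eq_false_iff.2 h1, Bool.and_false, Bool.false_and, Bool.false_and]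

lemma fN_congr {a c : ℕ} {B B' : ℕ → Bool} (ha : ∀ s ∈ trips, s.testBit a = true → B s = B' s)
    (hc : ∀ s ∈ trips, s.testBit c = true → B s = B' s) : fN a c B = fN a c B' := by
  unfold fN
  rw [zeroN_congr ha, degN_congr hc, noN_congr hc]

lemma low_high : ∀ p ∈ pairs, p.testBit (lowN p) = true ∧ p.testBit (highN p) = true ∧
    ∀ s ∈ trips, (s.testBit (lowN p) = true ∨ s.testBit (highN p) = true) → Nat.land s p ≠ 0 := by
  decide +kernel

lemma psiN_congr {B B' : ℕ → Bool} {p : ℕ} (hp : p ∈ pairs)
    (h : ∀ s ∈ trips, Nat.land s p ≠ 0 → B s = B' s) : psiN p B = psiN p B' := by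
  obtain ⟨-, -, h3⟩ := low_high p hp
  have h1 : ∀ s ∈ trips, s.testBit (lowN p) = true → B s = B' s := fun s hs hh =>
    h s hs (h3 s hs (Or.inl hh))
  have h2 : ∀ s ∈ trips, s.testBit (highN p) = true → B s = B' s := fun s hs hh =>
    h s hs (h3 s hs (Or.inr hh))
  unfold psiN
  rw [fN_congr h1 h2, fN_congr h2 h1]

lemma psiN_congr' {B B' : ℕ → Bool} (h : ∀ s ∈ trips, B s = B' s) (p : ℕ) :
    psiN p B = psiN p B' := by
  unfold psiN
  rw [fN_congr (fun s hs _ => h s hs) (fun s hs _ => h s hs),
    fN_congr (fun s hs _ => h s hs) (fun s hs _ => h s hs)]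

lemma val0_congr {B B' : ℕ → Bool} (h : ∀ m ∈ trips, B m = B' m) (q T : ℕ) :
    val0 q T B = val0 q T B' := by
  unfold val0
  rw [forcedN_congr h, psiN_congr' h]

lemma chiN_congr {B B' : ℕ → Bool} (h : ∀ m ∈ trips, B m = B' m) (p T : ℕ) :
    chiN p T B = chiN p T B' := by
  unfold chiN
  rw [show (fun q => forcedN q T B && !(Nat.land q 7 == q)) =
      (fun q => forcedN q T B' && !(Nat.land q 7 == q)) from
      funext fun q => by rw [forcedN_congr h],
    show (fun q => val0 q T B) = (fun q => val0 q T B') from funext fun q => val0_congr h q T]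

lemma PhiN_congr {B B' : ℕ → Bool} (h : ∀ m ∈ trips, B m = B' m) (p T : ℕ) :
    PhiN p T B = PhiN p T B' := by
  unfold PhiN
  rw [forcedN_congr h, chiN_congr h, psiN_congr' h]

end Vale.Agent.P032.H451.LabN
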