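import Vale.Agent.P032.H451.LabC

/-!
# P032: the labels at the two-pair points of the pure chains

`(X, Y | p, q)` : two-pair point, `X` between the two connecting arcs `X|p`, `X|q`; free borders
`Y|p`, `Y|q`; free colours `e` (beyond `p`), `f` (beyond `q`); five-cycle `(Y, p, e, f, q)`.
State `B` : the link of `X` is the five-cycle, the three other links are zero.  State `A` : the link
of `X` is zero, the others are those of the triangulation `rp X Y p q e f`.
-/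

namespace Vale.Agent.P032.H451

open Finset Vale.Agent.P032.S5 Vale.Agent.P032.S5.Tab

/-- one at the red colours `0, 1, 2` -/
def rd (x : Fin 6) : ZMod 2 := if x ∈ ({0, 1, 2} : Finset (Fin 6)) then 1 else 0

/-- label of the free border `{y,w}` of a point of state `B`, `x` the third colour -/
def LB (x y w : Fin 6) : ZMod 2 := if x ∈ ({0, 1, 2} : Finset (Fin 6)) then rd y + rd w
  else rd y * rd w

/-- the five-cycle `(y, p, e, f, q)` as a link of `x` -/
def cyB (x y p q e f : Fin 6) : Ch := fun s =>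
  if s = {x, y, p} ∨ s = {x, p, e} ∨ s = {x, e, f} ∨ s = {x, f, q} ∨ s = {x, q, y} then 1 else 0

/-- the triangulation of the projective plane with six vertices, the link of `x` is
`(y, p, e, f, q)` -/
def rp (x y p q e f : Fin 6) : Ch := fun s =>
  if s = {x, y, p} ∨ s = {x, p, e} ∨ s = {x, e, f} ∨ s = {x, f, q} ∨ s = {x, q, y} ∨
    s = {y, p, f} ∨ s = {p, e, q} ∨ s = {e, f, y} ∨ s = {f, q, p} ∨ s = {q, y, e} then 1 else 0

/-- pairs `y < w` of colours different from `x` and `v` -/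
def prs4 (x v : Fin 6) : Finset (Fin 6 × Fin 6) :=
  univ.filter fun a => a.1 < a.2 ∧ a.1 ≠ x ∧ a.1 ≠ v ∧ a.2 ≠ x ∧ a.2 ≠ v

/-- label of the connecting arc `x|v` in state `B`, a function of the link of `x` -/
def HB (x v : Fin 6) (z : Ch) : ZMod 2 :=
  ∑ a ∈ prs4 x v, z {x, a.1, a.2} * (z {x, v, a.1} + z {x, v, a.2}) * LB x a.1 a.2

/-- label of the connecting arc `x|v` in state `A`, a function of the link of `v` -/
def HA (x v : Fin 6) (z : Ch) : ZMod 2 :=
  rd x + ∑ a ∈ prs4 x v, (1 + z {v, a.1, a.2}) * (z {v, x, a.1} + z {v, x, a.2}) *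
    (rd a.1 * rd a.2)

theorem HB_congr {x v : Fin 6} {z z' : Ch}
    (h : ∀ y w : Fin 6, y ≠ w → x ≠ y → x ≠ w → z {x, y, w} = z' {x, y, w}) (hxv : x ≠ v) :
    HB x v z = HB x v z' := by
  unfold HB
  refine sum_congr rfl fun a ha => ?_
  simp only [prs4, mem_filter, mem_univ, true_and] at ha
  rw [h _ _ ha.1.ne ha.2.1.symm ha.2.2.2.1.symm, h _ _ ha.2.2.1.symm hxv ha.2.1.symm,
    h _ _ ha.2.2.2.2.symm hxv ha.2.2.2.1.symm]

theorem HA_congr {x v : Fin 6} {z z' : Ch}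
    (h : ∀ y w : Fin 6, y ≠ w → v ≠ y → v ≠ w → z {v, y, w} = z' {v, y, w}) (hxv : x ≠ v) :
    HA x v z = HA x v z' := by
  unfold HA
  congr 1
  refine sum_congr rfl fun a ha => ?_
  simp only [prs4, mem_filter, mem_univ, true_and] at ha
  rw [h _ _ ha.1.ne ha.2.2.1.symm ha.2.2.2.2.symm, h _ _ ha.2.1.symm hxv.symm ha.2.2.1.symm,
    h _ _ ha.2.2.2.1.symm hxv.symm ha.2.2.2.2.symm]

/-- all facts at once (one kernel computation) -/
theorem rows : ∀ x y : Fin 6, y ≠ x → ∀ p : Fin 6, p ≠ x → p ≠ y → ∀ q : Fin 6, q ≠ x → q ≠ y →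
    q ≠ p → ∀ e : Fin 6, e ≠ x → e ≠ y → e ≠ p → e ≠ q → ∀ f : Fin 6, f ≠ x → f ≠ y → f ≠ p →
    f ≠ q → f ≠ e →
    (HB x p (cyB x y p q e f) = LB x e f + LB x y q ∧
      HB x q (cyB x y p q e f) = LB x e f + LB x y p) ∧
    (HA x p (rp x y p q e f) = rd x + rd e * rd f + rd y * rd q ∧
      HA x q (rp x y p q e f) = rd x + rd e * rd f + rd y * rd p) := by
  decide +kernel

theorem nodup_ne {x y p q e f : Fin 6} (h : [x, y, p, q, e, f].Nodup) :
    y ≠ x ∧ p ≠ x ∧ p ≠ y ∧ q ≠ x ∧ q ≠ y ∧ q ≠ p ∧ (e ≠ x ∧ e ≠ y ∧ e ≠ p ∧ e ≠ q) ∧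
      f ≠ x ∧ f ≠ y ∧ f ≠ p ∧ f ≠ q ∧ f ≠ e := by
  simp only [List.nodup_cons, List.mem_cons, List.not_mem_nil, or_false, not_or] at h
  tauto

theorem HB_p {x y p q e f : Fin 6} (h : [x, y, p, q, e, f].Nodup) :
    HB x p (cyB x y p q e f) = LB x e f + LB x y q := by
  obtain ⟨h1, h2, h3, h4, h5, h6, ⟨h7, h8, h9, h10⟩, h11, h12, h13, h14, h15⟩ := nodup_ne h
  exact (rows x y h1 p h2 h3 q h4 h5 h6 e h7 h8 h9 h10 f h11 h12 h13 h14 h15).1.1

theorem HB_q {x y p q e f : Fin 6} (h : [x, y, p, q, e, f].Nodup) :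
    HB x q (cyB x y p q e f) = LB x e f + LB x y p := by
  obtain ⟨h1, h2, h3, h4, h5, h6, ⟨h7, h8, h9, h10⟩, h11, h12, h13, h14, h15⟩ := nodup_ne h
  exact (rows x y h1 p h2 h3 q h4 h5 h6 e h7 h8 h9 h10 f h11 h12 h13 h14 h15).1.2

theorem HA_p {x y p q e f : Fin 6} (h : [x, y, p, q, e, f].Nodup) :
    HA x p (rp x y p q e f) = rd x + rd e * rd f + rd y * rd q := by
  obtain ⟨h1, h2, h3, h4, h5, h6, ⟨h7, h8, h9, h10⟩, h11, h12, h13, h14, h15⟩ := nodup_ne h
  exact (rows x y h1 p h2 h3 q h4 h5 h6 e h7 h8 h9 h10 f h11 h12 h13 h14 h15).2.1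

theorem HA_q {x y p q e f : Fin 6} (h : [x, y, p, q, e, f].Nodup) :
    HA x q (rp x y p q e f) = rd x + rd e * rd f + rd y * rd p := by
  obtain ⟨h1, h2, h3, h4, h5, h6, ⟨h7, h8, h9, h10⟩, h11, h12, h13, h14, h15⟩ := nodup_ne h
  exact (rows x y h1 p h2 h3 q h4 h5 h6 e h7 h8 h9 h10 f h11 h12 h13 h14 h15).2.2

/-- three colours are red -/
def redB (x y p q e f : Fin 6) : Bool :=
  (rd x + rd y + rd p + rd q + rd e + rd f == 1) &&
    (!(rd x == 1 && rd p == 1) || (rd e * rd f == 0 && rd y * rd q == 0)) &&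
    (!(rd x == 1 && rd y == 1) || rd e * rd f == 0)

theorem redB_all : ∀ x y : Fin 6, y ≠ x → ∀ p : Fin 6, (p ≠ x ∧ p ≠ y) → ∀ q : Fin 6, (q ≠ x ∧
    q ≠ y ∧ q ≠ p) → ∀ e : Fin 6, (e ≠ x ∧ e ≠ y ∧ e ≠ p ∧ e ≠ q) → ∀ f : Fin 6, (f ≠ x ∧ f ≠ y ∧
    f ≠ p ∧ f ≠ q ∧ f ≠ e) → redB x y p q e f = true := by
  decide +kernel

/-- **the four borders in state `B`** -/
theorem rowB {x y p q e f : Fin 6} (h : [x, y, p, q, e, f].Nodup) :
    HB x p (cyB x y p q e f) + LB x y p + LB x y q + HB x q (cyB x y p q e f) = 0 := by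
  rw [HB_p h, HB_q h]
  generalize LB x e f = a
  generalize LB x y q = b
  generalize LB x y p = c
  revert a b c
  decide

/-- **the four borders in state `A`** -/
theorem rowA {x y p q e f : Fin 6} (h : [x, y, p, q, e, f].Nodup) :
    HA x p (rp x y p q e f) + rd y * rd p + rd y * rd q + HA x q (rp x y p q e f) = 0 := by
  rw [HA_p h, HA_q h]
  generalize rd x = a
  generalize rd y = b
  generalize rd p = c
  generalize rd q = d
  generalize rd e = i
  generalize rd f = j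
  revert a b c d i j
  decide

theorem red_sum {x y p q e f : Fin 6} (h : [x, y, p, q, e, f].Nodup) :
    rd x + rd y + rd p + rd q + rd e + rd f = 1 ∧
      (rd x = 1 → rd p = 1 → rd e * rd f = 0 ∧ rd y * rd q = 0) ∧
      (rd x = 1 → rd y = 1 → rd e * rd f = 0) := by
  obtain ⟨h1, h2, h3, h4, h5, h6, ⟨h7, h8, h9, h10⟩, h11, h12, h13, h14, h15⟩ := nodup_ne h
  have h0 := redB_all x y h1 p ⟨h2, h3⟩ q ⟨h4, h5, h6⟩ e ⟨h7, h8, h9, h10⟩ f
    ⟨h11, h12, h13, h14, h15⟩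
  unfold redB at h0
  simp only [Bool.and_eq_true, Bool.or_eq_true, Bool.not_eq_true', Bool.and_eq_false_iff,
    beq_iff_eq, beq_eq_false_iff_ne] at h0
  obtain ⟨⟨a1, a2⟩, a3⟩ := h0
  refine ⟨a1, fun b1 b2 => ?_, fun b1 b2 => ?_⟩
  · rcases a2 with (a2 | a2) | a2
    · exact absurd b1 a2
    · exact absurd b2 a2
    · exact a2
  · rcases a3 with (a3 | a3) | a3
    · exact absurd b1 a3
    · exact absurd b2 a3
    · exact a3

theorem LB_red {x : Fin 6} (hx : rd x = 1) (y w : Fin 6) : LB x y w = rd y + rd w := by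
  unfold LB
  rw [if_pos]
  by_contra hcon
  unfold rd at hx
  rw [if_neg hcon] at hx
  exact absurd hx (by decide)

theorem LB_off {x : Fin 6} (hx : rd x ≠ 1) (y w : Fin 6) : LB x y w = rd y * rd w := by
  unfold LB
  rw [if_neg]
  intro hcon
  apply hx
  unfold rd
  rw [if_pos hcon]

/-- the label of a red arc in state `B` -/
theorem ringB {x y p q e f : Fin 6} (h : [x, y, p, q, e, f].Nodup) (hx : rd x = 1)
    (hp : rd p = 1) : HB x p (cyB x y p q e f) = 1 := by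
  rw [HB_p h, LB_red hx, LB_red hx]
  have h1 := (red_sum h).1
  rw [hx, hp] at h1
  revert h1
  generalize rd y = b
  generalize rd q = d
  generalize rd e = i
  generalize rd f = j
  revert b d i j
  decide

/-- the label of a red arc in state `A` -/
theorem ringA {x y p q e f : Fin 6} (h : [x, y, p, q, e, f].Nodup) (hx : rd x = 1)
    (hp : rd p = 1) : HA x p (rp x y p q e f) = 1 := by
  obtain ⟨h1, h2⟩ := (red_sum h).2.1 hx hp
  rw [HA_p h, h1, h2, hx, add_zero, add_zero]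

/-- a two-pair point of state `B` on the ring -/
theorem epsB {x y p q e f : Fin 6} (h : [x, y, p, q, e, f].Nodup) (hx : rd x = 1)
    (hy : rd y = 1) (hp : rd p = 0) (hq : rd q = 0) :
    HB x p (cyB x y p q e f) + LB x y p = 1 := by
  have h1 := (red_sum h).1
  rw [HB_p h, LB_red hx, LB_red hx, LB_red hx, hy, hp, hq]
  rw [hx, hy, hp, hq] at h1
  revert h1
  generalize rd e = i
  generalize rd f = j
  revert i j
  decide

/-- a two-pair point of state `A` on the ring -/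
theorem epsA {x y p q e f : Fin 6} (h : [x, y, p, q, e, f].Nodup) (hx : rd x = 1)
    (hy : rd y = 1) (hp : rd p = 0) (hq : rd q = 0) :
    HA x p (rp x y p q e f) + rd y * rd p = 1 := by
  rw [HA_p h, (red_sum h).2.2 hx hy, hx, hp, hq, mul_zero, add_zero, add_zero, add_zero]

/-! ### the labels of the free borders -/

/-- a red pair -/
theorem red_pair {y p : Fin 6} (hy : rd y = 1) (hp : rd p = 1) :
    ({y, p} : Finset (Fin 6)) ⊆ {0, 1, 2} := by
  have key : ∀ x : Fin 6, rd x = 1 → x ∈ ({0, 1, 2} : Finset (Fin 6)) := by decide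
  intro a ha
  rw [mem_insert, mem_singleton] at ha
  rcases ha with rfl | rfl
  · exact key _ hy
  · exact key _ hp

/-- masks of the base of state `B` -/
def maskB (x y p : Fin 6) : Bool :=
  (LabN.PhiN (2 ^ (y : ℕ) + 2 ^ (p : ℕ)) (2 ^ (x : ℕ) + 2 ^ (y : ℕ) + 2 ^ (p : ℕ))
    (fun s => Nat.land s (63 - (2 ^ (y : ℕ) + 2 ^ (p : ℕ))) == s)) ==
    (LB x y p == 1)

theorem maskB_all : ∀ x y : Fin 6, y ≠ x → ∀ p : Fin 6, p ≠ x → p ≠ y →
    ({x, y, p} : Finset (Fin 6)) ≠ {0, 1, 2} → maskB x y p = true := by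
  decide +kernel

theorem msk2 : ∀ y p : Fin 6, y ≠ p → msk {y, p} = 2 ^ (y : ℕ) + 2 ^ (p : ℕ) := by decide

theorem msk3 : ∀ x y : Fin 6, x ≠ y → ∀ p : Fin 6, x ≠ p → y ≠ p →
    msk {x, y, p} = 2 ^ (x : ℕ) + 2 ^ (y : ℕ) + 2 ^ (p : ℕ) := by decide

theorem toB_bd : ∀ p : Finset (Fin 6), p.card = 2 → ∀ m ∈ trips,
    toB (bd pᶜ) m = (Nat.land m (63 - msk p) == m) := by
  decide +kernel

/-- **the free borders in state `B`** : label of the forced base -/
theorem Phi_B {x y p : Fin 6} (hxy : x ≠ y) (hxp : x ≠ p) (hyp : y ≠ p)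
    (hT : ({x, y, p} : Finset (Fin 6)) ≠ {0, 1, 2}) :
    PhiC {y, p} {x, y, p} (bd {y, p}ᶜ) = LB x y p := by
  have h1 := maskB_all x y hxy.symm p hxp.symm hyp.symm hT
  rw [PhiC_eq, LabN.PhiN_congr (toB_bd {y, p} (card_pair hyp)), msk3 x y hxy p hxp hyp,
    msk2 y p hyp]
  unfold maskB at h1
  rw [beq_iff_eq] at h1
  rw [h1]
  generalize LB x y p = a
  revert a
  decide

end Vale.Agent.P032.H451
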