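import Vale.Agent.P032.H451.LabV

/-!
# P032: bases and class values at the two-pair points of the pure chains

`adm_B`, `forced_B` : the two-pair point of state `B` is an admissible, forced base of its free
borders.  `psi_A` : the class value of the free borders in state `A`.
-/

namespace Vale.Agent.P032.H451

open Finset Vale.Agent.P032.S5 Vale.Agent.P032.S5.Tab

theorem isCyc_bd : ∀ q : Finset (Fin 6), q.card = 4 → IsCyc (bd q) := by
  intro q hq e he
  have key : ∀ q : Finset (Fin 6), q.card = 4 → ∀ e : Finset (Fin 6), e.card = 2 →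
      ∑ l ∈ eᶜ, (if insert l e ⊆ q then (1 : ZMod 2) else 0) = 0 := by decide +kernel
  exact key q hq e he

/-- the two-pair point of state `B` is an admissible base of its free border -/
theorem adm_B {x y p : Fin 6} (hxy : x ≠ y) (hxp : x ≠ p) (hyp : y ≠ p) :
    Adm {x, y, p} (bd {y, p}ᶜ) := by
  refine ⟨isCyc_bd _ (by rw [card_compl, card_pair hyp]; rfl), ?_, fun s hs => ?_⟩
  · unfold bd
    rw [if_pos]
    intro a ha
    rw [mem_compl] at ha ⊢
    exact fun h => ha (mem_insert_of_mem h)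
  · unfold bd
    by_cases h1 : s ⊆ ({y, p} : Finset (Fin 6))ᶜ
    · right
      rw [if_neg]
      intro h2
      have h3 : y ∈ s := by
        by_contra h4
        have h5 := h2 (mem_compl.2 h4)
        rw [mem_compl] at h5
        exact h5 (by simp)
      have h6 := h1 h3
      rw [mem_compl] at h6
      exact h6 (by simp)
    · left
      rw [if_neg h1]

theorem forced_B : ∀ x y : Fin 6, x ≠ y → ∀ p : Fin 6, x ≠ p → y ≠ p →
    Forced {y, p} {x, y, p} (bd {y, p}ᶜ) := by
  have key : ∀ x y : Fin 6, x ≠ y → ∀ p : Fin 6, x ≠ p → y ≠ p →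
      forcedN (2 ^ (y : ℕ) + 2 ^ (p : ℕ)) (2 ^ (x : ℕ) + 2 ^ (y : ℕ) + 2 ^ (p : ℕ))
        (fun s => Nat.land s (63 - (2 ^ (y : ℕ) + 2 ^ (p : ℕ))) == s) = true := by
    decide +kernel
  intro x y hxy p hxp hyp
  unfold Forced
  rw [forcedN_congr (toB_bd {y, p} (card_pair hyp)), msk3 x y hxy p hxp hyp, msk2 y p hyp]
  exact key x y hxy p hxp hyp

/-- a zero link at one colour and four edges or three edges at the other colour: the only way to a
non-zero class value of a pair which is not red -/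
theorem psiC_zero {y p : Fin 6} (hyp : y ≠ p) {z : Ch} (hr : ¬ (rd y = 1 ∧ rd p = 1))
    (h1 : ∃ s : Finset (Fin 6), s.card = 3 ∧ y ∈ s ∧ z s = 1)
    (h2 : ∃ s : Finset (Fin 6), s.card = 3 ∧ p ∈ s ∧ z s = 1) : psiC {y, p} z = 0 := by
  have zero : ∀ a : Fin 6, (∃ s : Finset (Fin 6), s.card = 3 ∧ a ∈ s ∧ z s = 1) →
      LabN.zeroN (a : ℕ) (toB z) = false := by
    rintro a ⟨s, hs, ha, hz⟩
    rw [Bool.eq_false_iff]
    intro h
    unfold LabN.zeroN at h
    rw [List.all_eq_true] at h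
    have h3 := h _ (msk_trips s hs)
    have h4 : (msk s).testBit (a : ℕ) = true := by
      have h5 : a ∈ unm (msk s) := by rw [unm_msk]; exact ha
      rw [unm, mem_filter] at h5
      exact h5.2
    have h6 : toB z (msk s) = true := by
      unfold toB
      rw [unm_msk, hz]
      rfl
    rw [h4, h6] at h3
    exact absurd h3 (by decide)
  have lh : ∀ y p : Fin 6, y ≠ p → (LabN.lowN (2 ^ (y : ℕ) + 2 ^ (p : ℕ)) = (y : ℕ) ∧
      LabN.highN (2 ^ (y : ℕ) + 2 ^ (p : ℕ)) = (p : ℕ)) ∨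
      (LabN.lowN (2 ^ (y : ℕ) + 2 ^ (p : ℕ)) = (p : ℕ) ∧
      LabN.highN (2 ^ (y : ℕ) + 2 ^ (p : ℕ)) = (y : ℕ)) := by decide +kernel
  have nr : ∀ y p : Fin 6, y ≠ p → ¬ (rd y = 1 ∧ rd p = 1) →
      (Nat.land (2 ^ (y : ℕ) + 2 ^ (p : ℕ)) 7 == 2 ^ (y : ℕ) + 2 ^ (p : ℕ)) = false := by
    decide +kernel
  unfold psiC LabN.psiN
  rw [msk2 y p hyp, nr y p hyp hr, Bool.false_or]
  rw [if_neg]
  have hf : ∀ a c : Fin 6, LabN.zeroN (a : ℕ) (toB z) = false →
      LabN.fN (a : ℕ) c (toB z) = false := by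
    intro a c h
    unfold LabN.fN
    rw [h, Bool.false_and]
  rcases lh y p hyp with ⟨e1, e2⟩ | ⟨e1, e2⟩
  · rw [e1, e2, hf y p (zero y h1), hf p y (zero p h2)]
    decide
  · rw [e1, e2, hf y p (zero y h1), hf p y (zero p h2)]
    decide

theorem rd_cases (x : Fin 6) : rd x = 0 ∨ rd x = 1 := by
  revert x
  decide

/-- **the free borders in state `A`**: only `z {x,y,p} = 1` is used -/
theorem psi_A {x y p : Fin 6} (hyp : y ≠ p) {z : Ch} (hxy : x ≠ y) (hxp : x ≠ p)
    (h : z {x, y, p} = 1) : psiC {y, p} z = rd y * rd p := by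
  have hc : ({x, y, p} : Finset (Fin 6)).card = 3 := by
    rw [card_insert_of_notMem (by simp [hxy, hxp]), card_pair hyp]
  by_cases hr : rd y = 1 ∧ rd p = 1
  · rw [psiC_red (red_pair hr.1 hr.2), hr.1, hr.2, mul_one]
  · rw [psiC_zero hyp hr ⟨_, hc, by simp, h⟩ ⟨_, hc, by simp, h⟩]
    rcases rd_cases y with h1 | h1
    · rw [h1, zero_mul]
    · rcases rd_cases p with h2 | h2
      · rw [h2, mul_zero]
      · exact absurd ⟨h1, h2⟩ hr

end Vale.Agent.P032.H451
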